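import Vale.Agent.P030.H611.KapG
import Vale.Agent.P030.H641.Dip
import Vale.Agent.P030.H792.MidAdapt

/-!
# P030, design A: the kernel family on `32/3 ≤ p/s < 25/2`
-/

open PowerSeries Module

namespace Vale.Agent.P030.H611

open Vale.Agent.P030.T Vale.Agent.P030.H392

/-- the tables which the kernel family needs -/
def KapAll (c0 : ℕ) : Prop :=
  ∀ (p : ℕ) [Fact p.Prime], 5 ≤ p → ∀ s : ℕ, p ≤ 27 * s → 32 * s + c0 + 2 ≤ p ^ 2 →
    12 * s + c0 ≤ 2 * p → 10 * s + c0 ≤ p →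
    ∃ (m : MidDat p) (q : ZMod p) (e : Gp → ZMod p),
      H792.RdTab p m (fun g => H579.parA.ht g * s + c0) ∧ KapTab p m q e

theorem kap_val_A {c0 : ℕ} (h : KapAll c0) (p : ℕ) [hp : Fact p.Prime] (hp5 : 5 ≤ p) {s : ℕ}
    {x : ℚ} (hx : padicNorm p x ≤ 1) (h1 : p ≤ 27 * s) (h2 : 32 * s + c0 + 2 ≤ p ^ 2)
    (h3 : 32 * s ≤ 3 * p) (h4 : 4 * c0 ≤ s)
    {σ : Fin (H579.parA.D0 * s) × Fin 8 → Cl} (hσ : Adm H579.parA c0 s σ)
    (hdet : (Mx (H579.parA.D0 * s) x σ).det ≠ 0) :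
    -(40 * (s : ℤ) + 3 * p + 10 * c0) ≤ padicValRat p (Mx (H579.parA.D0 * s) x σ).det := by
  have hD0 : H579.parA.D0 = 27 := rfl
  have hN' : ∀ g, H579.parA.ht g * s + c0 + 2 ≤ p ^ 2 := by
    intro g
    have h1 : H579.parA.ht g ≤ 32 := by cases g <;> decide
    have h2 := Nat.mul_le_mul_right s h1
    omega
  by_cases hM : 1 ≤ 25 * s - 2 * p - 2 * c0
  · obtain ⟨m, q, e, hT, hK⟩ := h p hp5 s h1 h2 (by omega) (by omega)
    have hE := H792.midHyp_of_tab (D := H579.parA.D0 * s) (by omega) hx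
      (fun g => by have := hN' g; omega) hT
    have h5 := kap_bound (p := p) (a := c0) (b := 2 * s + c0) (M := 25 * s - 2 * p - 2 * c0)
      hσ hdet (by omega) (by rw [hD0]; exact h1) (H641.latRow_int hp5 hx hN')
      (N := fun g => H579.parA.ht g * s + c0) (fun g => le_rfl) hE (fun r c _ => rfl) hK hM
      (by rw [hD0]; omega) (by
        intro g
        cases g <;> simp only [H579.parA, ordk, rr, Gp.cusp, Matrix.cons_val_zero,
          Matrix.cons_val_one, Matrix.cons_val] <;> omega)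
    have h7 := H792.sum_wg_A hσ
    have h8 := H792.latIdx_B (p := p) (D := H579.parA.D0 * s) (by omega) (by
      rw [hD0]; omega)
    rw [h8] at h5
    have hD : ((H579.parA.D0 * s : ℕ) : ℤ) = 27 * s := by
      rw [hD0]; push_cast; ring
    rw [hD] at h5
    have h9 : ((25 * s - 2 * p - 2 * c0 : ℕ) : ℤ) = 25 * s - 2 * p - 2 * c0 := by omega
    rw [h9] at h5
    linarith
  · have h5 := H678.bound_B hσ hdet (by omega) (by omega) (by rw [hD0]; exact h1) hx
      (fun g => by have := hN' g; omega)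
    have h6 : ∑ g : Gp, (2 - H678.wg g) * ((H579.parA.ht g * s + c0 : ℕ) : ℤ)
        = 200 * (s : ℤ) + 8 * c0 := by
      rw [H579.sum_Gp]
      simp only [H678.wg, H579.parA]
      push_cast
      ring
    rw [h6] at h5
    have hD : ((H579.parA.D0 * s : ℕ) : ℤ) = 27 * s := by
      rw [hD0]; push_cast; ring
    rw [hD] at h5
    omega

/-- **the local range of the kernel family** -/
theorem locRange_kap {c0 : ℕ} (h : KapAll c0) :
    H792.LocRange H579.parA c0 (32 / 3) (25 / 2) (fun q => 40 + 3 * q) := by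
  intro x η hη
  obtain ⟨s1, hs1⟩ := exists_nat_gt ((10 * c0) / η : ℝ)
  refine ⟨max s1 (4 * c0 + 2), fun s hs p hpp hp2 hxp hap hbp σ hσ hdet => ?_⟩
  have := Fact.mk hpp
  have hsc : 4 * c0 + 2 ≤ s := (le_max_right _ _).trans hs
  have hs0 : (0 : ℝ) < s := by
    have : 1 ≤ s := by omega
    exact_mod_cast this
  have hss1 : (s1 : ℝ) ≤ s := by exact_mod_cast (le_max_left _ _).trans hs
  have hC : (10 * c0 : ℝ) ≤ η * s := by
    have h1 := (div_lt_iff₀ hη).1 hs1
    have h2 := mul_le_mul_of_nonneg_right hss1 hη.le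
    linarith
  rw [le_div_iff₀ hs0] at hap
  rw [div_lt_iff₀ hs0] at hbp
  have n1 : 32 * s ≤ 3 * p := by
    have : (32 : ℝ) * s ≤ 3 * p := by linarith
    exact_mod_cast this
  have n2 : 2 * p < 25 * s := by
    have : (2 : ℝ) * p < 25 * s := by linarith
    exact_mod_cast this
  have hp5 : 5 ≤ p := by omega
  have hsq : 32 * s + c0 + 2 ≤ p ^ 2 := by nlinarith
  have hxn := H792.norm_x_le_one hxp
  have g := kap_val_A h p hp5 hxn (by omega) hsq n1 (by omega) hσ hdet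
  have hps : (s : ℝ) * ((p : ℝ) / s) = p := by field_simp
  have g2 : ((-(40 * (s : ℤ) + 3 * p + 10 * c0) : ℤ) : ℝ)
      ≤ (padicValRat p (Mx (H579.parA.D0 * s) x σ).det : ℝ) := by exact_mod_cast g
  push_cast at g2
  have e : (s : ℝ) * (40 + 3 * ((p : ℝ) / s) + η) = 40 * s + 3 * (s * ((p : ℝ) / s)) + η * s := by
    ring
  change -((s : ℝ) * (40 + 3 * ((p : ℝ) / s) + η)) ≤ _
  rw [e, hps]
  linarith

end Vale.Agent.P030.H611
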