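import Vale.Agent.P030.H611.KapI
import Vale.Agent.P030.H611.KapL
import Vale.Agent.P030.H678.RdAll

/-!
# P030, design A: the kernel family, unconditional
-/

open PowerSeries Module

set_option linter.unusedSectionVars false

namespace Vale.Agent.P030.H611

open Vale.Agent.P030.T Vale.Agent.P030.H392 Vale.Agent.P030.H678

variable {p : ℕ} [hp : Fact p.Prime]

theorem bet_eq (g : Gp) : bet p g = C (sg p g) * tF g := by
  cases g
  case z1 => change (1 - X) * (C (chi p) * serB) = C (chi p) * ((1 - X) * serB); ring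
  case z8 => change (1 - X) * serK = C 1 * ((1 - X) * serK); rw [map_one, one_mul]
  case w1 => rfl
  case wy => change -(C (chi p) * serK) = C (chi p) * -serK; ring
  case w8 => rfl
  case v8 => change -((1 - X) * serK) = C 1 * -((1 - X) * serK); rw [map_one, one_mul]
  case x2 => change C (1 / 8) * (C (chi p) * serK) = C (chi p) * (C (1 / 8) * serK); ring
  case xl => change -(C (chi p) * serK) = C (chi p) * -serK; ring
  case x1 => change C (1 / 4) * (C (chi p) * serM) = C (chi p) * (C (1 / 4) * serM); ring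
  all_goals (change (0 : ℚ⟦X⟧) = C _ * 0; rw [mul_zero])

theorem sg_sq (g : Gp) : sg p g * sg p g = 1 := by
  cases g <;> first | exact one_mul 1 | exact chi_sq p

theorem cast_sg_mul (g : Gp) {c : ℚ} (hc : Vg p 0 c) :
    ((sg p g * c : ℚ) : ZMod p) = ((sg p g : ℚ) : ZMod p) * (c : ZMod p) :=
  H792.red_mul (Vsg g).norm_le hc.norm_le

theorem cast_sg_sq (g : Gp) : ((sg p g : ℚ) : ZMod p) * ((sg p g : ℚ) : ZMod p) = 1 := by
  rw [← cast_sg_mul g (Vsg g), sg_sq, Rat.cast_one]

/-- the table for the canonical data -/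
theorem kapTab_mdat (hp5 : 5 ≤ p) :
    KapTab p (mdat p) ((chi p : ℚ) : ZMod p) (fun g => ((sg p g : ℚ) : ZMod p)) := by
  refine kapTab_of hp5 ?_ cast_sg_sq ?_ ?_ ?_
  · intro g h1 h2
    cases g <;> first | rfl | exact absurd rfl h1 | exact absurd rfl h2
  · intro g j n _
    exact H792.coeff_rdS _ _
  · intro g n hn
    have h1 : coeff n ((mdat p).beta g) = ((coeff n (bet p g) : ℚ) : ZMod p) :=
      H792.coeff_rdS _ _
    rw [h1, bet_eq, coeff_C_mul]
    exact cast_sg_mul g (vb_tF hp5 g n (hn.trans_le (ordk_le g)))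
  · intro g n hn
    have h1 : coeff n ((mdat p).tau g) = ((coeff n (ta p g) : ℚ) : ZMod p) :=
      H792.coeff_rdS _ _
    rw [h1, ta, coeff_C_mul]
    exact cast_sg_mul g (vb_t7 hp5 g n (hn.trans_le (ordk_le g)))

/-- **all tables which the kernel family needs** -/
theorem kapAll (c0 : ℕ) : KapAll c0 := by
  intro p hp hp5 s _ h2 _ _
  refine ⟨mdat p, _, _, rdTab (by omega) (by omega) fun g => ?_, kapTab_mdat hp5⟩
  have h8 : H579.parA.ht g ≤ 32 := by cases g <;> decide
  have h9 := Nat.mul_le_mul_right s h8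
  omega

/-- **the local range of the kernel family, without hypotheses** -/
theorem locRange_kapF (c0 : ℕ) :
    H792.LocRange H579.parA c0 (32 / 3) (25 / 2) (fun q => 40 + 3 * q) :=
  locRange_kap (kapAll c0)

end Vale.Agent.P030.H611
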