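import Vale.Agent.P030.H611.KapS
import Vale.Agent.P030.H792.Mid
import Vale.Agent.P030.H792.OdBase

/-!
# P030, odd primes `p < D/2`: the gain of the kernel family
-/

open PowerSeries Module

set_option linter.unusedSectionVars false

namespace Vale.Agent.P030.H611

open Vale.Agent.P030.T Vale.Agent.P030.H392

section
variable (p : ℕ) [hp : Fact p.Prime]

/-! ### reduction of the values -/

theorem rd_zsmul {N : ℕ} {f : ℚ⟦X⟧} {F : (ZMod p)⟦X⟧} (n : ℤ) (h : H792.Rd p N f F) :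
    H792.Rd p N (n • f) (n • F) := by
  have h1 : H792.Rd p N (C (n : ℚ) * f) (C (((n : ℚ)) : ZMod p) * F) :=
    (H792.Rd.C (padicNorm.of_int n)).mul h
  have e1 : (C (n : ℚ) : ℚ⟦X⟧) * f = n • f := by
    ext k
    rw [coeff_C_mul, map_zsmul, zsmul_eq_mul]
  have e2 : (C (((n : ℚ)) : ZMod p) : (ZMod p)⟦X⟧) * F = n • F := by
    ext k
    rw [coeff_C_mul, map_zsmul, zsmul_eq_mul, Rat.cast_intCast]
  rwa [e1, e2] at h1

theorem rd_Vc {N : ℕ} (h2 : p ≠ 2) (c : Fin 4) : H792.Rd p N (Vc c) (cB p c) := by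
  have hg : H792.Rd p N geo (gF p) := H792.Rd.geo
  have hh : H792.Rd p N (C (1 / 2 : ℚ)) (C (1 / 2 : ZMod p)) := H792.rd_half h2
  have hx : H792.Rd p N (1 - X) (1 - X) := H792.Rd.one.sub H792.Rd.X
  fin_cases c
  · exact hg
  · exact hh.mul hx
  · exact (H792.Rd.X.mul hg).neg
  · exact (hh.mul hx).neg

theorem half_half (h2 : p ≠ 2) (f : (ZMod p)⟦X⟧) :
    C (1 / 2 : ZMod p) * f + C (1 / 2 : ZMod p) * f = f := by
  have h3 := H792.two_ne_zmod (p := p) h2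
  rw [← add_mul, ← map_add]
  have : (1 / 2 : ZMod p) + 1 / 2 = 1 := by field_simp; norm_num
  rw [this, map_one, one_mul]

theorem cBA_0 : cB p 0 - cA p 0 = 1 := by
  change gF p - X * gF p = 1
  rw [← gF_spec p]
  ring

theorem cBA_1 (h2 : p ≠ 2) : cB p 1 - cA p 1 = 1 := by
  change C (1 / 2 : ZMod p) * (1 - X) - -(C (1 / 2 : ZMod p) * (1 + X)) = 1
  have := half_half p h2 1
  linear_combination this

theorem cBA_2 : cB p 2 - cA p 2 = 1 := by
  change -(X * gF p) - -gF p = 1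
  rw [← gF_spec p]
  ring

theorem cBA_3 (h2 : p ≠ 2) : cB p 3 - cA p 3 = X := by
  change -(C (1 / 2 : ZMod p) * (1 - X)) - -(C (1 / 2 : ZMod p) * (1 + X)) = X
  have := half_half p h2 X
  linear_combination this

theorem cY_1 (h2 : p ≠ 2) : cY p 1 = -X := by
  change -(C (1 / 2 : ZMod p) * (1 + X)) + C (1 / 2 : ZMod p) * (1 - X) = -X
  have := half_half p h2 X
  linear_combination -this

theorem rd_Dc {N : ℕ} (h2 : p ≠ 2) (c : Fin 4) :
    H792.Rd p N (Dc c) (cB p c - cA p c) := by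
  fin_cases c
  · change H792.Rd p N 1 (cB p 0 - cA p 0)
    rw [cBA_0]
    exact H792.Rd.one
  · change H792.Rd p N 1 (cB p 1 - cA p 1)
    rw [cBA_1 p h2]
    exact H792.Rd.one
  · change H792.Rd p N 1 (cB p 2 - cA p 2)
    rw [cBA_2]
    exact H792.Rd.one
  · change H792.Rd p N X (cB p 3 - cA p 3)
    rw [cBA_3 p h2]
    exact H792.Rd.X

theorem rd_kap {N : ℕ} {V D : ℚ⟦X⟧} {V' D' : (ZMod p)⟦X⟧} (hV : H792.Rd p N V V')
    (hD : H792.Rd p N D D') (j : Fin 6) : H792.Rd p N (kap V D j) (kap V' D' j) := by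
  have e1 := hD.mul hD
  have e2 := hV.mul hD
  have e3 := hV.mul hV
  unfold kap
  fin_cases j <;> exact ((rd_zsmul p _ e1).add (rd_zsmul p _ e2)).add (rd_zsmul p _ e3)

theorem rd_kapF {N : ℕ} {V D : ℚ⟦X⟧} {V' D' : (ZMod p)⟦X⟧} (hV : H792.Rd p N V V')
    (hD : H792.Rd p N D D') : H792.Rd p N (kapF V D) (kapF V' D') := by
  unfold kapF
  exact (((rd_zsmul p _ (hD.mul (hD.mul hD))).add (rd_zsmul p _ (hV.mul (hD.mul hD)))).add
    (rd_zsmul p _ (hV.mul (hV.mul hD)))).add (rd_zsmul p _ (hV.mul (hV.mul hV)))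

theorem rd_kapT {N : ℕ} {V D : ℚ⟦X⟧} {V' D' : (ZMod p)⟦X⟧} (hV : H792.Rd p N V V')
    (hD : H792.Rd p N D D') : H792.Rd p N (kapT V D) (kapT V' D') := by
  unfold kapT
  exact (rd_zsmul p _ hD).add (rd_zsmul p _ hV)

theorem rd_val {N : ℕ} {V D : ℚ⟦X⟧} {V' D' : (ZMod p)⟦X⟧} (hV : H792.Rd p N V V')
    (hD : H792.Rd p N D D') {t : Fin 8 → ℚ⟦X⟧} {f0 f1 f2 f3 f4 f5 F7 : (ZMod p)⟦X⟧}
    {u : ℚ⟦X⟧} {U : (ZMod p)⟦X⟧} (h0 : H792.Rd p N (t 0) f0) (h1 : H792.Rd p N (t 1) f1)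
    (h2 : H792.Rd p N (t 2) f2) (h3 : H792.Rd p N (t 3) f3) (h4 : H792.Rd p N (t 4) f4)
    (h5 : H792.Rd p N (t 5) f5) (h7 : H792.Rd p N (t 7) F7) (hu : H792.Rd p N u U) :
    H792.Rd p N (val V D t u) (val V' D' ![f0, f1, f2, f3, f4, f5, 0, F7] U) := by
  unfold val
  refine (((((((((rd_kap p hV hD 0).mul h0).add ((rd_kap p hV hD 1).mul h1)).add
    ((rd_kap p hV hD 2).mul h2)).add ((rd_kap p hV hD 3).mul h3)).add
    ((rd_kap p hV hD 4).mul h4)).add ((rd_kap p hV hD 5).mul h5)).add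
    ((rd_kapF p hV hD).mul hu)).add ?_)
  exact ((rd_zsmul p _ hV).add (rd_zsmul p _ hD)).mul ((rd_kapT p hV hD).mul h7)

/-- the low coefficients of the reduced series of the groups -/
structure KapTab (m : MidDat p) (q : ZMod p) (e : Gp → ZMod p) : Prop where
  ne : ∀ g, e g ≠ 0
  chi : ∀ g, g ≠ .z8 → g ≠ .v8 → e g = q
  ph : ∀ (g : Gp) (j : Fin 6), H792.Rd p (ordk g) (tup0 g (Fin.castLE (by decide) j)) (m.phi g j)
  be : ∀ g : Gp, H792.Rd p (ordk g) (tF g) (C (e g) * m.beta g)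
  ta : ∀ g : Gp, H792.Rd p (ordk g) (tup0 g 7) (C (e g) * m.tau g)

variable {p}
variable {m : MidDat p} {q : ZMod p} {e : Gp → ZMod p}

theorem coeff_vgF_e (h2 : p ≠ 2) (H : KapTab p m q e) (g : Gp) (n : ℕ) (hn : n < ordk g) :
    coeff n (vgF p m (e g) g) = 0 := by
  have h3 : H792.Rd p (ordk g) (vg g) (vgF p m (e g) g) := by
    rw [vg_eq, vgF]
    exact rd_val p (rd_Vc p h2 _) (rd_Dc p h2 _) (H.ph g 0) (H.ph g 1) (H.ph g 2) (H.ph g 3)
      (H.ph g 4) (H.ph g 5) (H.ta g) (H.be g)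
  rw [← (h3 n hn).2, coeff_vg g n hn, Rat.cast_zero]

theorem coeff_vgF (h2 : p ≠ 2) (H : KapTab p m q e) (g : Gp) (n : ℕ) (hn : n < ordk g) :
    coeff n (vgF p m q g) = 0 := by
  by_cases h8 : g = .z8 ∨ g = .v8
  · have h1 := coeff_vgF_e h2 H g n hn
    have hne := H.ne g
    have ho : ordk g = 1 := by rcases h8 with h | h <;> rw [h] <;> rfl
    have hn0 : n = 0 := by omega
    subst hn0
    have hz : ∀ j : Fin 6, coeff 0 (m.phi g j) = 0 := by
      intro j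
      have h3 : tup0 g (Fin.castLE (by decide) j) = 0 := by
        rcases h8 with h | h <;> rw [h] <;> fin_cases j <;> rfl
      have h4 := H.ph g j 0 hn
      rw [h3, map_zero, Rat.cast_zero] at h4
      exact h4.2.symm
    rw [vgF, val] at h1 ⊢
    simp only [Matrix.cons_val_zero, Matrix.cons_val_one, Matrix.cons_val, map_add, c0_mul, hz,
      mul_zero, zero_add, coeff_zero_C] at h1 ⊢
    have h5 : e g * (coeff 0 (kapF (cB p g.cusp) (cB p g.cusp - cA p g.cusp)) * coeff 0 (m.beta g)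
        + (coeff 0 ((2 : ℤ) • cB p g.cusp) + coeff 0 ((-1 : ℤ) • (cB p g.cusp - cA p g.cusp)))
          * (coeff 0 (kapT (cB p g.cusp) (cB p g.cusp - cA p g.cusp)) * coeff 0 (m.tau g))) = 0 := by
      linear_combination h1
    have h6 := (mul_eq_zero.1 h5).resolve_left hne
    linear_combination q * h6
  · rw [not_or] at h8
    rw [← H.chi g h8.1 h8.2]
    exact coeff_vgF_e h2 H g n hn

/-! ### the columns -/

theorem coeff_mul_up_zero {E G : (ZMod p)⟦X⟧} {r o : ℕ} (hE : ∀ j < r, coeff j E = 0)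
    (hG : ∀ j < o, coeff j G = 0) {k : ℕ} (hk : k < p * o + r) :
    coeff k (E * up p G) = 0 := by
  rw [coeff_mul_up]
  refine Finset.sum_eq_zero fun i hi => ?_
  by_cases h : i < o
  · rw [hG i h, mul_zero]
  · have h1 : p * o ≤ p * i := Nat.mul_le_mul_left p (not_lt.1 h)
    rcases Nat.eq_zero_or_pos r with h0 | h0
    · exfalso
      have h3 : i ≤ k / p := by
        have := Finset.mem_range.1 hi
        omega
      have h4 : p * i ≤ k := (Nat.mul_le_mul_left p h3).trans (Nat.mul_div_le k p)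
      omega
    · rw [hE (k - p * i) (by omega), zero_mul]

/-- the order of vanishing of the form at the cusps -/
def rr (a b : ℕ) : Fin 4 → ℕ := ![a, b, 0, 0]

variable {D a b M : ℕ}

theorem coeff_E (h2 : p ≠ 2) (c : Fin 4) (Z : (ZMod p)⟦X⟧) (j : ℕ) (hj : j < rr a b c) :
    coeff j (cA p c ^ a * (cY p c ^ b * Z)) = 0 := by
  fin_cases c
  · have h3 : j < a := hj
    have h4 : cA p 0 = X * gF p := rfl
    have h5 : cA p 0 ^ a * (cY p 0 ^ b * Z) = X ^ a * (gF p ^ a * (cY p 0 ^ b * Z)) := by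
      rw [h4, mul_pow]; ring
    change coeff j (cA p 0 ^ a * (cY p 0 ^ b * Z)) = 0
    rw [h5, coeff_X_pow_mul', if_neg (by omega)]
  · have h3 : j < b := hj
    have h5 : cA p 1 ^ a * (cY p 1 ^ b * Z) = X ^ b * ((-1) ^ b * (cA p 1 ^ a * Z)) := by
      rw [cY_1 p h2, neg_pow]; ring
    change coeff j (cA p 1 ^ a * (cY p 1 ^ b * Z)) = 0
    rw [h5, coeff_X_pow_mul', if_neg (by omega)]
  · exact absurd hj (Nat.not_lt_zero _)
  · exact absurd hj (Nat.not_lt_zero _)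

/-- **the family has the value zero at all columns of low order** -/
theorem kap_col (h2 : p ≠ 2) (H : KapTab p m q e) (hM : 1 ≤ M) (hD : 2 * p + a + b + M = D)
    (F : Polynomial.degreeLT (ZMod p) M) (c : Cl)
    (hc : c.2 < p * ordk c.1 + rr a b c.1.cusp) :
    Lam p D m (kf p q hM hD F) c = 0 := by
  rw [Lam_apply, ser_kf]
  exact coeff_mul_up_zero (fun j hj => coeff_E h2 _ _ j hj)
    (fun j hj => coeff_vgF h2 H c.1 j hj) hc

/-- **the gain at one prime** -/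
theorem kap_bound {P : Par} {c0 s : ℕ} {x : ℚ} {σ : Fin (P.D0 * s) × Fin 8 → Cl}
    (hσ : Adm P c0 s σ) (hdet : (Mx (P.D0 * s) x σ).det ≠ 0) (h2 : p ≠ 2)
    (hpD : p ≤ P.D0 * s)
    (hint : ∀ c : Cl, c.2 < P.ht c.1 * s + c0 → ∀ r,
      padicNorm p (H792.latRow p (P.D0 * s) H792.wr8 1 2 H678.hK x r c)
        ≤ (p : ℚ) ^ (-H678.wg c.1))
    {N : Gp → ℕ} {ent : Fin (P.D0 * s) × Fin 8 → Cl → ZMod p}
    (hN : ∀ g, P.ht g * s + c0 ≤ N g) (hE : MidHyp p (P.D0 * s) m N ent)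
    (hent : ∀ r : Fin (P.D0 * s) × Fin 8, ∀ c : Cl, c.2 < P.ht c.1 * s + c0 →
      ((H792.latRow p (P.D0 * s) H792.wr8 1 2 H678.hK x r c
        * (p : ℚ) ^ (-H678.wg c.1) : ℚ) : ZMod p) = ent r c)
    (H : KapTab p m q e) (hM : 1 ≤ M) (hD : 2 * p + a + b + M = P.D0 * s)
    (hc : ∀ g, P.ht g * s + c0 ≤ p * ordk g + rr a b g.cusp) :
    ∑ c, H678.wg (σ c).1 + ((M : ℤ) - 1) - H792.latIdx p (P.D0 * s) H792.wr8 1 2
      ≤ padicValRat p (Mx (P.D0 * s) x σ).det := by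
  classical
  have h0 : (LinearMap.range (kf p q hM hD)).map ((H792.tr p P c0 s).comp (Lam p (P.D0 * s) m))
      = ⊥ := by
    rw [eq_bot_iff]
    rintro y ⟨_, ⟨F, rfl⟩, rfl⟩
    rw [Submodule.mem_bot]
    ext c
    rw [LinearMap.comp_apply, H792.tr_apply, Pi.zero_apply]
    split_ifs with h
    · exact kap_col h2 H hM hD F c (h.trans_le (hc c.1))
    · rfl
  have h1 := H792.le_val_of_comp (p := p) hσ hdet H792.wr8 1 2 H678.hK H678.hK_zero
    (fun c => H678.wg c.1) hint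
    (Fintype.linearCombination (ZMod p) (rho p (P.D0 * s) m)) (Lam p (P.D0 * s) m)
    (by
      intro r c hc
      rw [Fintype.linearCombination_apply_single, one_smul, hent r c hc]
      exact ent_eq_Lam p (P.D0 * s) m hE r c (hc.trans_le (hN c.1)))
    (LinearMap.range (kf p q hM hD))
  rw [h0, finrank_bot, finrank_RR p (P.D0 * s) hpD, finrank_range_kf p h2 q hM hD] at h1
  push_cast at h1 ⊢
  linarith

end

end Vale.Agent.P030.H611
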