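import Vale.Agent.P030.H611.KapG
import Vale.Agent.P030.H792.TabPoly

/-!
# P030: low coefficients of the groups are `p`-integral
-/

open PowerSeries Module

set_option linter.unusedSectionVars false
set_option linter.unusedSimpArgs false

namespace Vale.Agent.P030.H611

open Vale.Agent.P030.T Vale.Agent.P030.H392 Vale.Agent.P030.H678

variable {p : ℕ} [hp : Fact p.Prime]

theorem not_dvd_144 (hp5 : 5 ≤ p) : ¬ p ∣ 144 := by
  intro h
  have h1 : (144 : ℕ) = 2 ^ 4 * 3 ^ 2 := by norm_num
  rw [h1] at h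
  rcases (Nat.Prime.dvd_mul hp.out).1 h with h2 | h2
  · have := Nat.le_of_dvd (by norm_num) (hp.out.dvd_of_dvd_pow h2)
    omega
  · have := Nat.le_of_dvd (by norm_num) (hp.out.dvd_of_dvd_pow h2)
    omega

theorem vg144 (hp5 : 5 ≤ p) {q : ℚ} (z : ℤ) (h : q = z / 144) : Vg p 0 q := by
  have := (Vg.int (p := p) z).div_unit (not_dvd_144 hp5)
  rw [h]
  exact_mod_cast this

theorem vb_lgm (hp5 : 5 ≤ p) : VB p 3 0 lgm := by
  intro m hm
  rw [cf_lgm]
  interval_cases m
  · exact vg144 hp5 0 (by norm_num)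
  · exact vg144 hp5 144 (by norm_num)
  · exact vg144 hp5 72 (by norm_num)

theorem vb_lgp (hp5 : 5 ≤ p) : VB p 3 0 lgp := by
  intro m hm
  rw [cf_lgp]
  interval_cases m
  · exact vg144 hp5 0 (by norm_num)
  · exact vg144 hp5 144 (by norm_num)
  · exact vg144 hp5 (-72) (by norm_num)

theorem vb_li2 (hp5 : 5 ≤ p) : VB p 3 0 li2 := by
  intro m hm
  rw [cf_li2]
  interval_cases m
  · exact vg144 hp5 0 (by norm_num)
  · exact vg144 hp5 144 (by norm_num)
  · exact vg144 hp5 36 (by norm_num)

theorem vb_integ (hp5 : 5 ≤ p) {f : ℚ⟦X⟧} (hf : VB p 3 0 f) : VB p 3 0 (integ f) := by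
  intro m hm
  rw [cf_integ]
  interval_cases m
  · exact vg144 hp5 0 (by norm_num)
  · have := hf 0 (by norm_num)
    simpa using this
  · have h1 := hf 1 (by norm_num)
    have h2 : ¬ p ∣ 2 := fun h => by
      have := Nat.le_of_dvd (by norm_num) h
      omega
    have := h1.div_unit h2
    simpa using this

theorem vb_B (hp5 : 5 ≤ p) : VB p 3 0 serB := by
  intro m hm
  interval_cases m
  · rw [B0]; exact vg144 hp5 0 (by norm_num)
  · rw [B1]; exact vg144 hp5 (-36) (by norm_num)
  · rw [B2]; exact vg144 hp5 (-9) (by norm_num)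

theorem vb_B2 (hp5 : 5 ≤ p) : VB p 4 0 serB2 := by
  intro m hm
  interval_cases m
  · rw [D0]; exact vg144 hp5 0 (by norm_num)
  · rw [D1]; exact vg144 hp5 (-36) (by norm_num)
  · rw [D2]; exact vg144 hp5 0 (by norm_num)
  · rw [D3]; exact vg144 hp5 (-16) (by norm_num)

theorem vb_K (hp5 : 5 ≤ p) (N : ℕ) : VB p N 0 serK := VBK (by omega) N

theorem vb_M (hp5 : 5 ≤ p) : VB p 4 0 serM := by
  have h0 : cMs 0 = 0 := by simp [cMs]
  have h1 : cMs 1 = 0 := by simp [cMs]
  have h2 : cMs 2 = 1 := by norm_num [cMs]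
  have h3 : cMs 3 = 1 := by norm_num [cMs]
  intro m hm
  have e : coeff m serM = coeff m serK * cMs m := by unfold serM; rw [coeff_mk]
  rw [e]
  interval_cases m
  · rw [h0, mul_zero]; exact Vg.zero _
  · rw [h1, mul_zero]; exact Vg.zero _
  · rw [h2, mul_one]; exact VgK (by omega) 2
  · rw [h3, mul_one]; exact VgK (by omega) 3

theorem vb_1X {N : ℕ} : VB p N 0 (1 - X : ℚ⟦X⟧) := VB.one.sub VB.X

theorem vb_C (hp5 : 5 ≤ p) {N : ℕ} {q : ℚ} (z : ℤ) (h : q = z / 144) : VB p N 0 (C q : ℚ⟦X⟧) :=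
  VB.C (vg144 hp5 z h)

theorem vb_sc (hp5 : 5 ≤ p) {N : ℕ} {q : ℚ} (z : ℤ) (h : q = z / 144) {f : ℚ⟦X⟧}
    (hf : VB p N 0 f) : VB p N 0 (sc q f) := VB.sc0 (vg144 hp5 z h) hf

theorem vb_tw (hp5 : 5 ≤ p) {f : ℚ⟦X⟧} (hf : VB p 4 0 f) : VB p 3 0 (tw f) :=
  VB.tw (by omega) hf

/-- the first three coefficients of the polylogarithmic slots -/
theorem vb_tup (hp5 : 5 ≤ p) (g : Gp) (j : Fin 8) (hj : (j : ℕ) < 6) : VB p 3 0 (tup0 g j) := by
  have hl := vb_lgm hp5
  have hlp := vb_lgp hp5
  have hl2 := vb_li2 hp5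
  have c0 : VB p 3 0 (0 : ℚ⟦X⟧) := VB.zero
  have c1 : VB p 3 0 (1 : ℚ⟦X⟧) := VB.one
  have h6 : j = 0 ∨ j = 1 ∨ j = 2 ∨ j = 3 ∨ j = 4 ∨ j = 5 := by omega
  cases g
  case z1 =>
    rcases h6 with h | h | h | h | h | h <;> subst h
    · exact c1
    · exact c0
    · exact hl
    · exact hl2
    · exact vb_integ hp5 (VB.geoa.mul0 hl)
    · exact vb_sc hp5 72 (by norm_num) (hl.pow 2)
  case zl =>
    rcases h6 with h | h | h | h | h | h <;> subst h
    · exact c0
    · exact c1
    · exact c0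
    · exact c0
    · exact (vb_sc hp5 72 (by norm_num) hl).add hlp
    · exact vb_sc hp5 72 (by norm_num) hl
  case z8 => rcases h6 with h | h | h | h | h | h <;> subst h <;> exact c0
  case zab =>
    rcases h6 with h | h | h | h | h | h <;> subst h
    · exact c0
    · exact c0
    · exact c0
    · exact c1
    · exact c0
    · exact c0
  case w1 =>
    rcases h6 with h | h | h | h | h | h <;> subst h
    · exact c1
    · exact c0
    · exact hl.neg
    · exact (vb_sc hp5 288 (by norm_num) (vb_integ hp5 (VB.geo2.mul0 hl))).neg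
    · exact hl2.neg.sub (vb_sc hp5 72 (by norm_num) (hl.pow 2))
    · exact vb_sc hp5 72 (by norm_num) (hl.pow 2)
  case wl =>
    rcases h6 with h | h | h | h | h | h <;> subst h
    · exact c0
    · exact c1
    · exact c1.neg
    · exact (hlp.add hl).neg
    · exact (vb_sc hp5 72 (by norm_num) hl).neg
    · exact vb_sc hp5 72 (by norm_num) hl
  case wy =>
    rcases h6 with h | h | h | h | h | h <;> subst h
    · exact c0
    · exact c0
    · exact c0
    · exact (vb_C hp5 192 (by norm_num)).neg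
    · exact (vb_C hp5 192 (by norm_num)).neg
    · exact c0
  case w8 => rcases h6 with h | h | h | h | h | h <;> subst h <;> exact c0
  case wab =>
    rcases h6 with h | h | h | h | h | h <;> subst h
    · exact c0
    · exact c0
    · exact c0
    · exact c1
    · exact c0
    · exact c0
  case wf7 =>
    rcases h6 with h | h | h | h | h | h <;> subst h
    · exact c0
    · exact c0
    · exact c0
    · exact c0
    · exact c0
    · exact c1
  case v2 =>
    rcases h6 with h | h | h | h | h | h <;> subst h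
    · exact c0
    · exact c0
    · exact c0
    · exact c1.neg
    · exact c1.neg
    · exact c1
  case vl =>
    rcases h6 with h | h | h | h | h | h <;> subst h
    · exact c0
    · exact c0
    · exact c0
    · exact c0
    · exact c1.neg
    · exact c1
  case v8 => rcases h6 with h | h | h | h | h | h <;> subst h <;> exact c0
  case vb =>
    rcases h6 with h | h | h | h | h | h <;> subst h
    · exact c0
    · exact c0
    · exact c1
    · exact c0
    · exact hlp
    · exact hl
  case x2 =>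
    rcases h6 with h | h | h | h | h | h <;> subst h
    · exact c0
    · exact c0
    · exact c0
    · exact c0
    · exact c0
    · exact vb_C hp5 72 (by norm_num)
  case xl =>
    rcases h6 with h | h | h | h | h | h <;> subst h
    · exact c0
    · exact c0
    · exact c0
    · exact c0
    · exact c1.neg
    · exact c1
  case x1 =>
    rcases h6 with h | h | h | h | h | h <;> subst h
    · exact c0
    · exact c0
    · exact c1.neg
    · exact (hlp.add hl).neg
    · exact hl.neg
    · exact hl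

theorem vb_tF (hp5 : 5 ≤ p) (g : Gp) : VB p 3 0 (tF g) := by
  have hK := vb_K hp5 3
  have c0 : VB p 3 0 (0 : ℚ⟦X⟧) := VB.zero
  cases g
  case z1 => exact vb_1X.mul0 (vb_B hp5)
  case zl => exact c0
  case z8 => exact vb_1X.mul0 hK
  case zab => exact c0
  case w1 => exact (vb_B2 hp5).le (by norm_num)
  case wl => exact c0
  case wy => exact hK.neg
  case w8 => exact hK
  case wab => exact c0
  case wf7 => exact c0
  case v2 => exact c0
  case vl => exact c0
  case v8 => exact (vb_1X.mul0 hK).neg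
  case vb => exact c0
  case x2 => exact vb_sc hp5 18 (by norm_num) hK
  case xl => exact hK.neg
  case x1 => exact vb_sc hp5 36 (by norm_num) ((vb_M hp5).le (by norm_num))

theorem vb_t7 (hp5 : 5 ≤ p) (g : Gp) : VB p 3 0 (tup0 g 7) := by
  have hK := vb_K hp5 3
  have hK4 := vb_K hp5 4
  have c0 : VB p 3 0 (0 : ℚ⟦X⟧) := VB.zero
  have hX : VB p 3 0 (X : ℚ⟦X⟧) := VB.X
  cases g
  case z1 => exact vb_1X.mul0 (vb_B hp5).th
  case zl => exact c0
  case z8 => exact vb_1X.mul0 hK.th
  case zab => exact c0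
  case w1 => exact vb_tw hp5 (vb_B2 hp5)
  case wl => exact c0
  case wy => exact (vb_tw hp5 hK4).neg
  case w8 => exact vb_tw hp5 hK4
  case wab => exact c0
  case wf7 => exact c0
  case v2 => exact c0
  case vl => exact c0
  case v8 => exact vb_1X.mul0 (VB.dd (VB.X.mul0 hK4))
  case vb => exact c0
  case x2 => exact vb_sc hp5 18 (by norm_num) (hX.mul0 (vb_tw hp5 hK4))
  case xl => exact (hX.mul0 (vb_tw hp5 hK4)).neg
  case x1 =>
    exact vb_sc hp5 36 (by norm_num) ((hX.mul0 (vb_tw hp5 (vb_M hp5))).add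
      (vb_sc hp5 72 (by norm_num) ((VB.one.sub (VB.X.pow 2)).mul0 hK)))

theorem ordk_le (g : Gp) : ordk g ≤ 3 := by cases g <;> decide

theorem rd_of_coeff {N : ℕ} {f : ℚ⟦X⟧} {F : (ZMod p)⟦X⟧} (hf : VB p N 0 f)
    (h : ∀ n < N, coeff n F = ((coeff n f : ℚ) : ZMod p)) : H792.Rd p N f F := by
  intro k hk
  have h1 : padicNorm p (coeff k f) ≤ (p : ℚ) ^ (-(0 : ℤ)) := hf k hk
  rw [neg_zero, zpow_zero] at h1
  exact ⟨h1, (h k hk).symm⟩

/-- **the table of low coefficients from the canonical reductions** -/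
theorem kapTab_of (hp5 : 5 ≤ p) {m : MidDat p} {q : ZMod p} {e : Gp → ZMod p}
    (he : ∀ g, g ≠ .z8 → g ≠ .v8 → e g = q) (he2 : ∀ g, e g * e g = 1)
    (hph : ∀ (g : Gp) (j : Fin 6) (n : ℕ), n < ordk g → coeff n (m.phi g j)
      = ((coeff n (tup0 g (Fin.castLE (by decide) j)) : ℚ) : ZMod p))
    (hbe : ∀ (g : Gp) (n : ℕ), n < ordk g → coeff n (m.beta g)
      = e g * ((coeff n (tF g) : ℚ) : ZMod p))
    (hta : ∀ (g : Gp) (n : ℕ), n < ordk g → coeff n (m.tau g)
      = e g * ((coeff n (tup0 g 7) : ℚ) : ZMod p)) : KapTab p m q e where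
  ne := by
    intro g h
    have := he2 g
    rw [h, mul_zero] at this
    exact zero_ne_one this
  chi := he
  ph := fun g j => rd_of_coeff
    ((vb_tup hp5 g _ (by have := j.2; exact this)).le (ordk_le g)) (hph g j)
  be := fun g => rd_of_coeff ((vb_tF hp5 g).le (ordk_le g)) fun n hn => by
    rw [coeff_C_mul, hbe g n hn, ← mul_assoc, he2, one_mul]
  ta := fun g => rd_of_coeff ((vb_t7 hp5 g).le (ordk_le g)) fun n hn => by
    rw [coeff_C_mul, hta g n hn, ← mul_assoc, he2, one_mul]

end Vale.Agent.P030.H611
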