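import Vale.Agent.P030.T.Defs

/-!
# P030, odd primes: a vector over `ℚ[V]` killed by all groups

`kap` is a vector of forms in `(V, Δ)` (degrees `2` for the polylogarithmic slots, `3` for the slot
`F`, `1` for the slot `T`).  Its values on the groups of frame T vanish to order `3` at `c0`, `c1`
(main groups), `2` for `v2`, `1` otherwise.
-/

open PowerSeries

set_option linter.unusedSimpArgs false

namespace Vale.Agent.P030.H611

open Vale.Agent.P030.T

/-! ### low coefficients -/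

section low

variable {R : Type*} [CommRing R]

theorem cn_mul (f g : R⟦X⟧) (n : ℕ) :
    coeff n (f * g) = ∑ i ∈ Finset.range (n + 1), coeff i f * coeff (n - i) g := by
  rw [coeff_mul, Finset.Nat.sum_antidiagonal_eq_sum_range_succ
    (fun i j => coeff i f * coeff j g)]

theorem c0_mul (f g : R⟦X⟧) : coeff 0 (f * g) = coeff 0 f * coeff 0 g := by
  rw [cn_mul]
  simp

theorem c1_mul (f g : R⟦X⟧) :
    coeff 1 (f * g) = coeff 0 f * coeff 1 g + coeff 1 f * coeff 0 g := by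
  rw [cn_mul, Finset.sum_range_succ, Finset.sum_range_one]

theorem c2_mul (f g : R⟦X⟧) :
    coeff 2 (f * g) = coeff 0 f * coeff 2 g + coeff 1 f * coeff 1 g + coeff 2 f * coeff 0 g := by
  rw [cn_mul, Finset.sum_range_succ, Finset.sum_range_succ, Finset.sum_range_one]

theorem c3_mul (f g : R⟦X⟧) :
    coeff 3 (f * g) = coeff 0 f * coeff 3 g + coeff 1 f * coeff 2 g + coeff 2 f * coeff 1 g
      + coeff 3 f * coeff 0 g := by
  rw [cn_mul, Finset.sum_range_succ, Finset.sum_range_succ, Finset.sum_range_succ,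
    Finset.sum_range_one]

end low

theorem cf_lgm (n : ℕ) : coeff n lgm = if n = 0 then 0 else 1 / (n : ℚ) := coeff_mk _ _
theorem cf_lgp (n : ℕ) : coeff n lgp = if n = 0 then 0 else (-1) ^ (n + 1) / (n : ℚ) :=
  coeff_mk _ _
theorem cf_li2 (n : ℕ) : coeff n li2 = if n = 0 then 0 else 1 / (n : ℚ) ^ 2 := coeff_mk _ _
theorem cf_integ (f : ℚ⟦X⟧) (n : ℕ) :
    coeff n (integ f) = if n = 0 then 0 else coeff (n - 1) f / (n : ℚ) := coeff_mk _ _
theorem cf_th (f : ℚ⟦X⟧) (n : ℕ) : coeff n (th f) = (n : ℚ) * coeff n f := coeff_mk _ _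
theorem cf_dd (f : ℚ⟦X⟧) (n : ℕ) : coeff n (dd f) = ((n : ℚ) + 1) * coeff (n + 1) f :=
  coeff_mk _ _
theorem cf_geo (n : ℕ) : coeff n geo = 1 := coeff_mk _ _
theorem cf_geoa (n : ℕ) : coeff n geoa = (-1) ^ n := coeff_mk _ _
theorem cf_geo2 (n : ℕ) : coeff n geo2 = if Even n then 1 else 0 := coeff_mk _ _
theorem cf_sc (q : ℚ) (f : ℚ⟦X⟧) (n : ℕ) : coeff n (sc q f) = q * coeff n f := by
  unfold sc; rw [coeff_C_mul]
theorem cf_tw (f : ℚ⟦X⟧) (n : ℕ) :
    coeff n (tw f) = 1 / 2 * coeff n ((1 + X) * dd ((1 - X) * f)) := by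
  unfold tw; rw [cf_sc]

theorem K0 : coeff 0 serK = 1 := by unfold serK; rw [coeff_mk]; norm_num
theorem K1 : coeff 1 serK = 0 := by unfold serK; rw [coeff_mk]; norm_num
theorem K2 : coeff 2 serK = 1 / 4 := by
  unfold serK; rw [coeff_mk]; norm_num [Nat.centralBinom_eq_two_mul_choose, Nat.choose]
theorem K3 : coeff 3 serK = 0 := by
  unfold serK; rw [coeff_mk, if_neg (by decide)]
theorem M0 : coeff 0 serM = 0 := by unfold serM; rw [coeff_mk]; simp [cMs]
theorem B0 : coeff 0 serB = 0 := by unfold serB; rw [coeff_mk]; rfl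
theorem B1 : coeff 1 serB = -1 / 4 := by unfold serB; rw [coeff_mk]; rfl
theorem B2 : coeff 2 serB = -1 / 16 := by unfold serB; rw [coeff_mk]; norm_num [cB]
theorem D0 : coeff 0 serB2 = 0 := by unfold serB2; rw [coeff_mk]; rfl
theorem D1 : coeff 1 serB2 = -1 / 4 := by unfold serB2; rw [coeff_mk]; rfl
theorem D2 : coeff 2 serB2 = 0 := by unfold serB2; rw [coeff_mk]; norm_num [cB2]
theorem D3 : coeff 3 serB2 = -1 / 9 := by unfold serB2; rw [coeff_mk]; norm_num [cB2]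

/-! ### the vector -/

section vec

variable {R : Type*} [CommRing R]

/-- polylogarithmic slots -/
def kap (V D : R) (j : Fin 6) : R :=
  ![(2 : ℤ) • (D * D) + (-6 : ℤ) • (V * D) + (4 : ℤ) • (V * V),
    (2 : ℤ) • (D * D) + (10 : ℤ) • (V * D) + (-12 : ℤ) • (V * V),
    (0 : ℤ) • (D * D) + (10 : ℤ) • (V * D) + (-4 : ℤ) • (V * V),
    (0 : ℤ) • (D * D) + (8 : ℤ) • (V * D) + (-8 : ℤ) • (V * V),
    (9 : ℤ) • (D * D) + (-20 : ℤ) • (V * D) + (20 : ℤ) • (V * V),
    (9 : ℤ) • (D * D) + (-12 : ℤ) • (V * D) + (4 : ℤ) • (V * V)] j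

/-- slot `F` -/
def kapF (V D : R) : R :=
  (-48 : ℤ) • (D * (D * D)) + (128 : ℤ) • (V * (D * D)) + (-112 : ℤ) • (V * (V * D))
    + (32 : ℤ) • (V * (V * V))

/-- slot `T` -/
def kapT (V D : R) : R := (48 : ℤ) • D + (-16 : ℤ) • V

/-- the value on a tuple (slot `F` given separately) -/
def val (V D : R) (t : Fin 8 → R) (tF : R) : R :=
  kap V D 0 * t 0 + kap V D 1 * t 1 + kap V D 2 * t 2 + kap V D 3 * t 3 + kap V D 4 * t 4
    + kap V D 5 * t 5 + kapF V D * tF + ((2 : ℤ) • V + (-1 : ℤ) • D) * (kapT V D * t 7)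

end vec

/-- the coordinate `V` at the cusps -/
noncomputable def Vc : Fin 4 → ℚ⟦X⟧
  | 0 => geo
  | 1 => C (1 / 2) * (1 - X)
  | 2 => -(X * geo)
  | 3 => -(C (1 / 2) * (1 - X))

/-- the coordinate `Δ` at the cusps -/
noncomputable def Dc : Fin 4 → ℚ⟦X⟧
  | 0 => 1
  | 1 => 1
  | 2 => 1
  | 3 => X

/-- the slot `F` divided by `Δ` -/
noncomputable def tF : Gp → ℚ⟦X⟧
  | .x2 => sc (1 / 8) serK
  | .xl => -serK
  | .x1 => sc (1 / 4) serM
  | g => tup0 g 6

/-- value of `kap` on a group -/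
noncomputable def vg (g : Gp) : ℚ⟦X⟧ := val (Vc g.cusp) (Dc g.cusp) (tup0 g) (tF g)

/-- the order of vanishing -/
def ordk : Gp → ℕ
  | .z1 => 3 | .zl => 3 | .z8 => 1 | .zab => 1
  | .w1 => 3 | .wl => 3 | .wy => 3 | .w8 => 0 | .wab => 0 | .wf7 => 0
  | .v2 => 2 | .vl => 1 | .v8 => 1 | .vb => 1
  | .x2 => 1 | .xl => 1 | .x1 => 1

theorem vg_eq (g : Gp) : vg g = val (Vc g.cusp) (Dc g.cusp) (tup0 g) (tF g) := rfl

theorem coeff_vg (g : Gp) (m : ℕ) (hm : m < ordk g) : coeff m (vg g) = 0 := by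
  unfold vg val kap kapF kapT
  cases g <;> simp only [ordk] at hm <;>
  (try (exact absurd hm (Nat.not_lt_zero _))) <;>
  simp only [Gp.cusp, Vc, Dc, tup0, tF, Matrix.cons_val] <;>
  interval_cases m <;>
  simp only [map_add, map_sub, map_neg, map_zsmul, c0_mul, c1_mul, c2_mul, c3_mul, cf_lgm, cf_lgp,
    cf_li2, cf_integ, cf_th, cf_dd, cf_tw, cf_geo, cf_geoa, cf_geo2, cf_sc, K0, K1, K2, K3, M0, B0,
    B1, B2, D0, D1, D2, D3, coeff_one, coeff_X, coeff_C, map_zero, pow_two, one_ne_zero,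
    OfNat.ofNat_ne_zero, ↓reduceIte, Nat.sub_self, Nat.reduceSub, Nat.reduceAdd,
    Nat.reduceEqDiff, zero_add] <;>
  norm_num

end Vale.Agent.P030.H611
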