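import Vale.Agent.P030.H392.Mid
import Vale.Agent.P030.H611.KapQ
import Vale.Agent.P030.H792.Bridge

/-!
# P030, odd primes `p < D/2`: the kernel family

The rows `(κ_j(V, Δ) E)_j`, `E` a form of degree `D - 1 - 2p`, `V = B^p`, `Δ = (B - A)^p`, have values
`E · up (vgF g)`, and `vgF g` vanishes to order `ordk g`.
-/

open PowerSeries Module

set_option linter.unusedSectionVars false

namespace Vale.Agent.P030.H611

open Vale.Agent.P030.T Vale.Agent.P030.H392

section
variable (p : ℕ) [hp : Fact p.Prime]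

theorem up_add (f g : (ZMod p)⟦X⟧) : up p (f + g) = up p f + up p g := by
  ext n
  simp only [up, coeff_mk, map_add]
  split_ifs <;> simp

theorem up_neg (f : (ZMod p)⟦X⟧) : up p (-f) = -up p f := by
  ext n
  simp only [up, coeff_mk, map_neg]
  split_ifs <;> simp

theorem up_sub (f g : (ZMod p)⟦X⟧) : up p (f - g) = up p f - up p g := by
  rw [sub_eq_add_neg, up_add, up_neg, sub_eq_add_neg]

theorem up_zsmul (n : ℤ) (f : (ZMod p)⟦X⟧) : up p (n • f) = n • up p f := by
  ext k
  simp only [up, coeff_mk, map_zsmul]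
  split_ifs <;> simp

theorem up_C_mul (a : ZMod p) (f : (ZMod p)⟦X⟧) : up p (C a * f) = C a * up p f := by
  ext k
  simp only [up, coeff_mk, coeff_C_mul]
  split_ifs <;> simp

theorem up_C (a : ZMod p) : up p (C a) = C a := by
  ext k
  simp only [up, coeff_mk, coeff_C]
  rcases eq_or_ne k 0 with h | h
  · subst h
    simp
  · rw [if_neg h]
    split_ifs with h1 h2
    · exfalso
      obtain ⟨m, rfl⟩ := h1
      rw [Nat.mul_div_cancel_left m hp.out.pos] at h2
      subst h2
      simp at h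
    · rfl
    · rfl

theorem up_kap (V D : (ZMod p)⟦X⟧) (j : Fin 6) :
    up p (kap V D j) = kap (up p V) (up p D) j := by
  unfold kap
  fin_cases j <;> simp only [Matrix.cons_val, Fin.zero_eta, Fin.mk_one, Fin.reduceFinMk,
    Matrix.cons_val_zero, Matrix.cons_val_one] <;>
    simp only [up_add, up_zsmul, up_mul]

theorem up_kapF (V D : (ZMod p)⟦X⟧) : up p (kapF V D) = kapF (up p V) (up p D) := by
  unfold kapF
  simp only [up_add, up_zsmul, up_mul]

theorem up_kapT (V D : (ZMod p)⟦X⟧) : up p (kapT V D) = kapT (up p V) (up p D) := by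
  unfold kapT
  simp only [up_add, up_zsmul]

/-- the value of the vector on the reduced tuple -/
noncomputable def vgF (m : MidDat p) (q : ZMod p) (g : Gp) : (ZMod p)⟦X⟧ :=
  val (cB p g.cusp) (cB p g.cusp - cA p g.cusp)
    ![m.phi g 0, m.phi g 1, m.phi g 2, m.phi g 3, m.phi g 4, m.phi g 5, 0, C q * m.tau g]
    (C q * m.beta g)

/-! ### evaluation of the polynomials -/

/-- the polynomial of `Δ` -/
noncomputable def dP : Polynomial (ZMod p) := 1 - Polynomial.X ^ p

theorem deg_one (n : ℕ) : (1 : Polynomial (ZMod p)).natDegree ≤ n := by simp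

theorem deg_dP : (dP p).natDegree ≤ p :=
  (Polynomial.natDegree_sub_le _ _).trans (max_le (by simp) (Polynomial.natDegree_X_pow_le _))

theorem ev_V (c : Fin 4) : ev p c p 1 = up p (cB p c) := by
  have h2 := ev_X_pow p c (d := p) (i := 0) (by omega)
  rw [pow_zero, pow_zero, one_mul, Nat.sub_zero] at h2
  rw [h2, up_eq_pow]

theorem ev_D (c : Fin 4) : ev p c p (dP p) = up p (cB p c - cA p c) := by
  rw [dP, map_sub, ev_V, ev_X_pow p c le_rfl, Nat.sub_self, pow_zero, mul_one, up_sub,
    up_eq_pow p (cA p c)]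

theorem deg_mul2 {P Q : Polynomial (ZMod p)} {a b : ℕ} (hP : P.natDegree ≤ a)
    (hQ : Q.natDegree ≤ b) : (P * Q).natDegree ≤ a + b :=
  Polynomial.natDegree_mul_le.trans (by omega)

theorem deg_zsmul {P : Polynomial (ZMod p)} {a : ℕ} (n : ℤ) (hP : P.natDegree ≤ a) :
    (n • P).natDegree ≤ a := (Polynomial.natDegree_smul_le n P).trans hP

theorem deg_add2 {P Q : Polynomial (ZMod p)} {a : ℕ} (hP : P.natDegree ≤ a)
    (hQ : Q.natDegree ≤ a) : (P + Q).natDegree ≤ a :=
  (Polynomial.natDegree_add_le _ _).trans (max_le hP hQ)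

theorem deg_kap (j : Fin 6) : (kap 1 (dP p) j).natDegree ≤ p + p := by
  have hD := deg_dP p
  have h1 := deg_one p p
  have e1 := deg_mul2 p hD hD
  have e2 := deg_mul2 p h1 hD
  have e3 := deg_mul2 p h1 h1
  unfold kap
  fin_cases j <;> exact deg_add2 p (deg_add2 p (deg_zsmul p _ e1) (deg_zsmul p _ e2))
    (deg_zsmul p _ e3)

theorem ev_kap (c : Fin 4) (j : Fin 6) :
    ev p c (p + p) (kap 1 (dP p) j) = up p (kap (cB p c) (cB p c - cA p c) j) := by
  have hD := deg_dP p
  have h1 := deg_one p p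
  have e1 : ev p c (p + p) (dP p * dP p) = up p (cB p c - cA p c) * up p (cB p c - cA p c) := by
    rw [ev_mul p c hD hD, ev_D]
  have e2 : ev p c (p + p) (1 * dP p) = up p (cB p c) * up p (cB p c - cA p c) := by
    rw [ev_mul p c h1 hD, ev_D, ev_V]
  have e3 : ev p c (p + p) (1 * 1) = up p (cB p c) * up p (cB p c) := by
    rw [ev_mul p c h1 h1, ev_V]
  rw [up_kap]
  unfold kap
  fin_cases j <;> simp only [Matrix.cons_val, Fin.zero_eta, Fin.mk_one, Fin.reduceFinMk,
    Matrix.cons_val_zero, Matrix.cons_val_one] <;>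
    simp only [map_add, map_zsmul, e1, e2, e3]

theorem deg_kapF : (kapF 1 (dP p)).natDegree ≤ p + (p + p) := by
  have hD := deg_dP p
  have h1 := deg_one p p
  have e1 := deg_mul2 p hD (deg_mul2 p hD hD)
  have e2 := deg_mul2 p h1 (deg_mul2 p hD hD)
  have e3 := deg_mul2 p h1 (deg_mul2 p h1 hD)
  have e4 := deg_mul2 p h1 (deg_mul2 p h1 h1)
  unfold kapF
  exact deg_add2 p (deg_add2 p (deg_add2 p (deg_zsmul p _ e1) (deg_zsmul p _ e2))
    (deg_zsmul p _ e3)) (deg_zsmul p _ e4)

theorem ev_kapF (c : Fin 4) :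
    ev p c (p + (p + p)) (kapF 1 (dP p)) = up p (kapF (cB p c) (cB p c - cA p c)) := by
  have hD := deg_dP p
  have h1 := deg_one p p
  rw [up_kapF]
  unfold kapF
  simp only [map_add, map_zsmul, ev_mul p c hD (deg_mul2 p hD hD), ev_mul p c h1 (deg_mul2 p hD hD),
    ev_mul p c h1 (deg_mul2 p h1 hD), ev_mul p c h1 (deg_mul2 p h1 h1), ev_mul p c hD hD,
    ev_mul p c h1 hD, ev_mul p c h1 h1, ev_D, ev_V]

theorem deg_kapT : (kapT 1 (dP p)).natDegree ≤ p := by
  unfold kapT
  exact deg_add2 p (deg_zsmul p _ (deg_dP p)) (deg_zsmul p _ (deg_one p p))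

theorem ev_kapT (c : Fin 4) :
    ev p c p (kapT 1 (dP p)) = up p (kapT (cB p c) (cB p c - cA p c)) := by
  rw [up_kapT]
  unfold kapT
  simp only [map_add, map_zsmul, ev_D, ev_V]

/-! ### the family -/

variable {D a b M : ℕ}

/-- the form `E` -/
noncomputable def eP (a b : ℕ) (F : Polynomial (ZMod p)) : Polynomial (ZMod p) :=
  Polynomial.X ^ a * ((1 + Polynomial.X) ^ b * F)

theorem deg_eP {F : Polynomial (ZMod p)} (hF : F.natDegree ≤ M - 1) :
    (eP p a b F).natDegree ≤ a + (b + (M - 1)) :=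
  deg_mul2 p (Polynomial.natDegree_X_pow_le _) (deg_mul2 p (natDeg_Y_pow p b) hF)

theorem ev_eP (c : Fin 4) {F : Polynomial (ZMod p)} (hF : F.natDegree ≤ M - 1) :
    ev p c (a + (b + (M - 1))) (eP p a b F) = cA p c ^ a * (cY p c ^ b * ev p c (M - 1) F) := by
  rw [eP, ev_mul p c (Polynomial.natDegree_X_pow_le _) (deg_mul2 p (natDeg_Y_pow p b) hF),
    ev_mul p c (natDeg_Y_pow p b) hF, ev_Y_pow, ev_X_pow p c le_rfl, Nat.sub_self, pow_zero,
    mul_one]

theorem mem_k2 (hM : 1 ≤ M) (hD : 2 * p + a + b + M = D) (F : Polynomial.degreeLT (ZMod p) M)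
    (j : Fin 6) : kap 1 (dP p) j * eP p a b F.1 ∈ Polynomial.degreeLT (ZMod p) D := by
  have h2 := natDeg_le_of_mem p F.2
  exact mem_degreeLT_of p (by omega)
    ((deg_mul2 p (deg_kap p j) (deg_eP p h2)).trans (by omega))

theorem mem_k3 (hM : 1 ≤ M) (hD : 2 * p + a + b + M = D) (F : Polynomial.degreeLT (ZMod p) M)
    (q : ZMod p) :
    q • (kapF 1 (dP p) * eP p a b F.1) ∈ Polynomial.degreeLT (ZMod p) (D + p) := by
  have h2 := natDeg_le_of_mem p F.2
  refine Submodule.smul_mem _ _ ?_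
  exact mem_degreeLT_of p (by omega)
    ((deg_mul2 p (deg_kapF p) (deg_eP p h2)).trans (by omega))

theorem mem_k1 (hM : 1 ≤ M) (hD : 2 * p + a + b + M = D) (F : Polynomial.degreeLT (ZMod p) M)
    (q : ZMod p) : q • ((1 + Polynomial.X) * (kapT 1 (dP p) * eP p a b F.1))
      ∈ Polynomial.degreeLT (ZMod p) (D + 1 - p) := by
  have h2 := natDeg_le_of_mem p F.2
  refine Submodule.smul_mem _ _ ?_
  exact mem_degreeLT_of p (by omega)
    ((deg_mul2 p (natDeg_Y p) (deg_mul2 p (deg_kapT p) (deg_eP p h2))).trans (by omega))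

/-- the family -/
noncomputable def kf (q : ZMod p) (hM : 1 ≤ M) (hD : 2 * p + a + b + M = D) :
    Polynomial.degreeLT (ZMod p) M →ₗ[ZMod p] RR p D where
  toFun F := (fun j => ⟨_, mem_k2 p hM hD F j⟩, ⟨_, mem_k3 p hM hD F q⟩, ⟨_, mem_k1 p hM hD F q⟩)
  map_add' P Q := by
    refine Prod.ext ?_ (Prod.ext ?_ ?_)
    · funext j
      apply Subtype.ext
      simp only [Prod.fst_add, Pi.add_apply, Submodule.coe_add, eP]
      ring
    · apply Subtype.ext
      simp only [Prod.fst_add, Prod.snd_add, Submodule.coe_add, eP, ← smul_add]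
      congr 1
      ring
    · apply Subtype.ext
      simp only [Prod.snd_add, Submodule.coe_add, eP, ← smul_add]
      congr 1
      ring
  map_smul' r P := by
    refine Prod.ext ?_ (Prod.ext ?_ ?_)
    · funext j
      apply Subtype.ext
      simp only [Prod.smul_fst, Pi.smul_apply, Submodule.coe_smul, RingHom.id_apply,
        Polynomial.smul_eq_C_mul, eP]
      ring
    · apply Subtype.ext
      simp only [Prod.smul_fst, Prod.smul_snd, Submodule.coe_smul, RingHom.id_apply,
        Polynomial.smul_eq_C_mul, eP]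
      ring
    · apply Subtype.ext
      simp only [Prod.smul_snd, Submodule.coe_smul, RingHom.id_apply,
        Polynomial.smul_eq_C_mul, eP]
      ring

theorem kap4_ne (h2 : p ≠ 2) : kap 1 (dP p) 0 ≠ 0 := by
  intro h
  have hpos := hp.out.pos
  have h1 := congrArg (fun P => Polynomial.coeff P (p + p)) h
  have h3 : kap 1 (dP p) 0
      = Polynomial.C 2 * Polynomial.X ^ (p + p) + Polynomial.C 2 * Polynomial.X ^ p := by
    simp only [kap, dP, Matrix.cons_val_zero, zsmul_eq_mul]
    push_cast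
    simp only [map_ofNat, pow_add]
    ring
  simp only [h3, Polynomial.coeff_add, Polynomial.coeff_C_mul, Polynomial.coeff_X_pow,
    Polynomial.coeff_zero, if_true] at h1
  rw [if_neg (by omega)] at h1
  have h4 : (2 : ZMod p) = 0 := by simpa using h1
  exact H792.two_ne_zmod h2 h4

theorem kf_injective (h2 : p ≠ 2) (q : ZMod p) (hM : 1 ≤ M) (hD : 2 * p + a + b + M = D) :
    Function.Injective (kf p q hM hD) := by
  rw [injective_iff_map_eq_zero]
  intro F h
  have h3 := congrArg (fun P : RR p D => ((P.1 0 : Polynomial.degreeLT (ZMod p) D)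
    : Polynomial (ZMod p))) h
  have h4 : kap 1 (dP p) 0 * (Polynomial.X ^ a * ((1 + Polynomial.X) ^ b * F.1)) = 0 := h3
  have h5 := (mul_eq_zero.1 h4).resolve_left (kap4_ne p h2)
  have h6 := (mul_eq_zero.1 h5).resolve_left (pow_ne_zero _ Polynomial.X_ne_zero)
  have hY : (1 + Polynomial.X : Polynomial (ZMod p)) ^ b ≠ 0 := by
    apply pow_ne_zero
    intro h
    have := congrArg (fun P => Polynomial.coeff P 1) h
    simp [Polynomial.coeff_one] at this
  exact Subtype.ext ((mul_eq_zero.1 h6).resolve_left hY)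

theorem finrank_range_kf (h2 : p ≠ 2) (q : ZMod p) (hM : 1 ≤ M)
    (hD : 2 * p + a + b + M = D) :
    finrank (ZMod p) (LinearMap.range (kf p q hM hD)) = M := by
  rw [LinearMap.finrank_range_of_inj (kf_injective p h2 q hM hD), finrank_degreeLT]

/-- the values on the family -/
theorem ser_kf (m : MidDat p) (q : ZMod p) (hM : 1 ≤ M) (hD : 2 * p + a + b + M = D) (g : Gp)
    (F : Polynomial.degreeLT (ZMod p) M) :
    ser p D m g (kf p q hM hD F)
      = cA p g.cusp ^ a * (cY p g.cusp ^ b * ev p g.cusp (M - 1) F.1) * up p (vgF p m q g) := by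
  have hF := natDeg_le_of_mem p F.2
  have hp1 := hp.out.pos
  set c := g.cusp with hc
  set E := cA p c ^ a * (cY p c ^ b * ev p c (M - 1) F.1) with hE
  have e1 : ∀ j, ev p c (D - 1) ((kf p q hM hD F).1 j).1
      = up p (kap (cB p c) (cB p c - cA p c) j) * E := by
    intro j
    have h4 : ((kf p q hM hD F).1 j).1 = kap 1 (dP p) j * eP p a b F.1 := rfl
    rw [h4, show D - 1 = (p + p) + (a + (b + (M - 1))) by omega,
      ev_mul p c (deg_kap p j) (deg_eP p hF), ev_kap, ev_eP p c hF]
  have e2 : ev p c (D + p - 1) (kf p q hM hD F).2.1.1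
      = C q * (up p (kapF (cB p c) (cB p c - cA p c)) * E) := by
    have h4 : (kf p q hM hD F).2.1.1 = q • (kapF 1 (dP p) * eP p a b F.1) := rfl
    rw [h4, map_smul, show D + p - 1 = (p + (p + p)) + (a + (b + (M - 1))) by omega,
      ev_mul p c (deg_kapF p) (deg_eP p hF), ev_kapF, ev_eP p c hF, smul_eq_C_mul]
  have e3 : ev p c (D - p) (kf p q hM hD F).2.2.1
      = C q * (cY p c * (up p (kapT (cB p c) (cB p c - cA p c)) * E)) := by
    have h4 : (kf p q hM hD F).2.2.1
        = q • ((1 + Polynomial.X) * (kapT 1 (dP p) * eP p a b F.1)) := rfl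
    rw [h4, map_smul, show D - p = 1 + (p + (a + (b + (M - 1)))) by omega,
      ev_mul p c (natDeg_Y p) (deg_mul2 p (deg_kapT p) (deg_eP p hF)),
      ev_mul p c (deg_kapT p) (deg_eP p hF), ev_kapT, ev_eP p c hF, ev_one_add_X, smul_eq_C_mul]
  have e4 : cY p c * cY p c ^ (p - 1) = up p (cY p c) := by
    rw [up_eq_pow, ← pow_succ']
    congr 1
    omega
  have e5 : (2 : ℤ) • cB p c + (-1 : ℤ) • (cB p c - cA p c) = cY p c := by
    rw [cY]
    simp only [neg_smul, one_smul, two_smul]
    ring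
  rw [ser_apply, ← hc, e2, e3, Finset.sum_congr rfl fun j _ => by rw [e1 j], Fin.sum_univ_six,
    vgF, val]
  simp only [← hc, Matrix.cons_val, e5]
  simp only [up_add, up_mul, up_C, ← e4]
  ring

end

end Vale.Agent.P030.H611
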